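import Vale.Agent.P097.H226.W.Defs
import Vale.Agent.P097.H881.Sign
import Vale.Agent.P097.H983.Har
import Vale.Agent.P097.H365.W.Pos
import Vale.Agent.P097.H328.W.PosW

/-!
# P097 / case [c] / block (W), row LAT (helper19): one-sided bounds at a mid-level window

`theorem lat : H226.W.Lat`. Walls by Harnack along the chain `Ch` of 881, values by the one-sided
Schottky chain, position by the division lemma of 365.
-/

set_option linter.all false

open Complex Metric Filter Topology Set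

namespace Vale.Agent.P097.H19

open Vale.Agent.P097.TC Vale.Agent.P097.H881 Vale.Agent.P097.H226.W

/-- the distance to the walls along a chain -/
theorem wall_ch {E : Type*} [NormedAddCommGroup E] [NormedSpace ℂ E] {U : Set E} {n : ℕ}
    {z w : E} {R R' H : ℝ} {θ : E → ℂ} (h : Ch U n z R w R') (hθ : DifferentiableOn ℂ θ U)
    (hs : ∀ y ∈ U, |(θ y).im| < H) : H - |(θ z).im| ≤ KS ^ n * (H - |(θ w).im|) := by
  induction h with
  | refl _ _ => simp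
  | @step n z w v R R' R'' h hRR hv hR hU ih =>
    have hR' := h.stop
    have hn := norm_nonneg (v - w)
    have h1 := (H983.wall_ball (c := w) (z := v) (R := R') (H := H) (hθ.mono hR'.2)
      (fun y hy => hs y (hR'.2 hy)) (by linarith [hR'.1])).1
    have p1 : 0 < H - |(θ w).im| := by linarith [hs w (hR'.2 (mem_ball_self hR'.1))]
    have p2 : 0 < H - |(θ v).im| := by linarith [hs v (hU (mem_ball_self hR))]
    have h2 : R' * (H - |(θ w).im|) ≤ R' * (2 * (H - |(θ v).im|)) := by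
      have e1 : (79 / 80 * R') * (H - |(θ w).im|) ≤ (R' - ‖v - w‖) * (H - |(θ w).im|) := by
        gcongr
        linarith
      have e2 : (R' + ‖v - w‖) * (H - |(θ v).im|) ≤ (81 / 80 * R') * (H - |(θ v).im|) := by
        gcongr
        linarith
      have e3 : 0 < R' * (H - |(θ v).im|) := mul_pos hR'.1 p2
      nlinarith
    have h3 := le_of_mul_le_mul_left h2 hR'.1
    have hKS : (2 : ℝ) ≤ KS := by
      have := KS_ge
      have := sq_nonneg (2 * H264.LS + 1)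
      linarith
    have h4 : 2 * (H - |(θ v).im|) ≤ KS * (H - |(θ v).im|) := by gcongr
    have h5 : 0 ≤ KS ^ n := by positivity
    calc H - |(θ z).im| ≤ KS ^ n * (H - |(θ w).im|) := ih
      _ ≤ KS ^ n * (KS * (H - |(θ v).im|)) := by
        gcongr
        linarith
      _ = KS ^ (n + 1) * (H - |(θ v).im|) := by ring

/-- constant -/
noncomputable def AA (X om : ℝ) : ℝ := KS ^ (320 * X + 324) * (1 / om) ^ pS * (8 / om) ^ pS

theorem AA_pos (X : ℝ) {om : ℝ} (hom : 0 < om) : 0 < AA X om := by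
  unfold AA
  have := KS_one
  positivity

theorem BQ_le {X om t ω : ℝ} (hom : 0 < om) (hω : 0 < ω) (ht : om * ω / 8 ≤ t) :
    BQ X om t ≤ AA X om * (ω⁻¹) ^ pS := by
  have hKS := KS_one
  have ht0 : 0 < t := lt_of_lt_of_le (by positivity) ht
  have h1 : 1 / t ≤ 8 / om * ω⁻¹ := by
    rw [div_mul_eq_mul_div, div_le_div_iff₀ ht0 hom]
    have : 8 * ω⁻¹ * (om * ω / 8) ≤ 8 * ω⁻¹ * t := by gcongr
    have e : 8 * ω⁻¹ * (om * ω / 8) = om := by field_simp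
    linarith
  unfold BQ AA
  rw [mul_assoc (KS ^ (320 * X + 324) * (1 / om) ^ pS), ← Real.mul_rpow (by positivity) (by positivity)]
  have h2 : (1 / t) ^ pS ≤ (8 / om * ω⁻¹) ^ pS := Real.rpow_le_rpow (by positivity) h1 pS_nonneg
  gcongr

theorem ax_im1 (h : ℝ) : (ax h).1.im = -h := by simp [ax]
theorem ax_im2 (h : ℝ) : (ax h).2.im = h := by simp [ax]
theorem norm_ax {h : ℝ} (hh : 0 ≤ h) : ‖ax h‖ = h := by
  simp [ax, Prod.norm_def, abs_of_nonneg hh]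

/-- the one-sided bounds and the base value, over the data `RG` -/
theorem core {g G : ℂ × ℂ → ℂ} {X om ω h M : ℝ} (hX : 1 ≤ X) (hom : 0 < om) (hom1 : om ≤ 1)
    (hω : 0 < ω) (hω1 : ω ≤ 1) (hh : 0 < h)
    (hRG : RG (QT (min om (ω / 4) * h / 2) 0 ((X + 2) * h)) M g G) {β z : ℂ × ℂ}
    (β1 : om * h ≤ -β.1.im) (β2 : om * h ≤ β.2.im) (hβ : ‖β‖ ≤ X * h) (hG : G β ≠ 0)
    (z1 : ω * h ≤ -z.1.im) (z2 : ω * h ≤ z.2.im) (hz : ‖z‖ ≤ X * h) :
    0 ≤ Lg M G β ∧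
    (∀ v, ‖v - z‖ ≤ ω * h / 160 → ∀ sg : ℝ, (sg = 1 ∨ sg = -1) → sg * (g v).re ≤
      BQ X 1 ω * (2 * KS * (1 + max (sg * (g (ax h)).re) 0 + BQ X om 1 * Lg M G β))) ∧
    ∃ z', ‖z' - z‖ ≤ ω * h / 640 ∧ G z' ≠ 0 ∧ Lg M G z' ≤ BQ X om (ω / 4) * Lg M G β := by
  have hKS := KS_one
  have hm1 : min om (ω / 4) * h / 2 ≤ min om 1 * h / 2 := by
    have : min om (ω / 4) ≤ min om 1 := min_le_min_left _ (by linarith)
    gcongr
  have hm2 : min om (ω / 4) * h / 2 ≤ min 1 ω * h / 2 := by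
    have : min om (ω / 4) ≤ min 1 ω := min_le_min hom1 (by linarith)
    gcongr
  have a1 : (1 : ℝ) * h ≤ -(ax h).1.im := by rw [ax_im1]; linarith
  have a2 : (1 : ℝ) * h ≤ (ax h).2.im := by rw [ax_im2]; linarith
  have a3 : dist (ax h) 0 ≤ X * h := by
    rw [dist_zero_right, norm_ax hh.le]
    nlinarith
  have hβ' : dist β 0 ≤ X * h := by rwa [dist_zero_right]
  have hz' : dist z 0 ≤ X * h := by rwa [dist_zero_right]
  have hRG1 := hRG.mono (QT_mono hm1 (le_refl ((X + 2) * h)))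
  have hRG2 := hRG.mono (QT_mono hm2 (le_refl ((X + 2) * h)))
  obtain ⟨b', hb1, hb2, hb3⟩ := quad_G hom hom1 one_pos le_rfl hh β1 β2 hβ' a1 a2 a3 hRG1 hG
  obtain ⟨n, hn, hch⟩ := quad_ch (b := ax h) (z := z) (p := 0) (X := X) (ω₀ := 1) (ω := ω) (ρ := h)
    one_pos le_rfl hω hω1 hh a1 a2 a3 z1 z2 hz'
  obtain ⟨m, hm, hchβ⟩ := quad_ch (b := β) (z := ax h) (p := 0) (X := X) (ω₀ := om) (ω := 1) (ρ := h)
    hom hom1 one_pos le_rfl hh β1 β2 hβ' a1 a2 a3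
  have hL0 : 0 ≤ Lg M G β := Lg_nonneg hRG1 (hchβ.start.2 (mem_ball_self hchβ.start.1)) hG
  have hr0 : (0 : ℝ) < 1 * h / 2 := by positivity
  have hb1' : ‖b' - ax h‖ ≤ 1 * h / 2 / 80 := by linarith
  have hLb : 0 ≤ Lg M G b' := by
    refine Lg_nonneg hRG2 (hch.start.2 ?_) hb2
    rw [mem_ball, dist_eq_norm]
    linarith
  have hKp := KS_pow (X := X) one_pos hω hn
  refine ⟨hL0, ?_, ?_⟩
  · intro v hv sg hsg
    have hr := (Ch.refl hch.start.1 hch.start.2).fin1 hRG2 hb1' hb2 (v := ax h)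
      (by rw [sub_self, norm_zero]; positivity)
    have hf := hch.fin1 hRG2 hb1' hb2 (v := v) (by linarith)
    obtain ⟨r1, r2, r3, r4⟩ := hr
    obtain ⟨f1, f2, f3, f4⟩ := hf
    have key : ∀ P Q S : ℝ, 0 ≤ P → 0 ≤ Q → Q ≤ KS ^ (0 + 1) * (P + 1 + Lg M G b') →
        S ≤ KS ^ (n + 1) * (1 + Q + Lg M G b') →
        S ≤ BQ X 1 ω * (2 * KS * (1 + P + BQ X om 1 * Lg M G β)) := by
      intro P Q S hP hQ hQP hS
      rw [zero_add, pow_one] at hQP
      have e1 : KS * (P + 1 + Lg M G b') ≤ KS * (1 + P + BQ X om 1 * Lg M G β) :=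
        mul_le_mul_of_nonneg_left (by linarith) (by linarith)
      have e2 : 1 + Lg M G b' ≤ KS * (1 + P + BQ X om 1 * Lg M G β) := by
        have e3 : 1 + Lg M G b' ≤ 1 + P + BQ X om 1 * Lg M G β := by linarith
        exact e3.trans (le_mul_of_one_le_left (by linarith) hKS)
      calc S ≤ KS ^ (n + 1) * (1 + Q + Lg M G b') := hS
        _ ≤ BQ X 1 ω * (1 + Q + Lg M G b') := by gcongr
        _ ≤ BQ X 1 ω * (2 * KS * (1 + P + BQ X om 1 * Lg M G β)) := by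
          have : 0 ≤ BQ X 1 ω := le_trans (by positivity) hKp
          gcongr
          linarith
    rcases hsg with rfl | rfl
    · rw [one_mul, one_mul]
      exact (le_max_left _ _).trans (key _ _ _ (le_max_right _ _) (le_max_right _ _) r4 f2)
    · have e : ∀ x : ℝ, (-1 : ℝ) * x = -x := fun x => by ring
      rw [e, e]
      exact (le_max_left _ _).trans (key _ _ _ (le_max_right _ _) (le_max_right _ _) r3 f1)
  · obtain ⟨z', c1, c2, c3⟩ := quad_G hom hom1 (by positivity : 0 < ω / 4) (by linarith) hh β1 β2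
      hβ' (z := z) (by nlinarith) (by nlinarith) hz' hRG hG
    exact ⟨z', by linarith, c2, c3⟩

/-- the walls at every point of the tube -/
theorem walls {b e X om ω h : ℝ} {th : ℂ × ℂ → ℂ} (hX : 1 ≤ X) (hom : 0 < om) (hom1 : om ≤ 1)
    (hω : 0 < ω) (hω1 : ω ≤ 1) (hh : 0 < h) (he : 0 < e) (hXh : (X + 4) * h ≤ 1)
    (hd : DifferentiableOn ℂ th (Bx 1 ∩ Qu)) (hm : ∀ z ∈ Bx 1 ∩ Qu, th z ∈ Sb b) {β : ℂ × ℂ}
    (β1 : om * h ≤ -β.1.im) (β2 : om * h ≤ β.2.im) (hβ : ‖β‖ ≤ X * h) (hβb : |(th β).im| ≤ b - e)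
    {y : ℂ × ℂ} (hy : y ∈ QT (min om (ω / 4) * h / 2) 0 ((X + 2) * h)) :
    e ≤ AA (X + 2) om * (ω⁻¹) ^ pS * (b - |(th y).im|) := by
  obtain ⟨y1, y2, y3⟩ := hy
  set t : ℝ := min om (ω / 4) / 2 with ht
  have ht0 : 0 < t := by
    have : 0 < min om (ω / 4) := lt_min hom (by positivity)
    positivity
  have ht1 : t ≤ 1 := by
    have := min_le_left om (ω / 4)
    linarith
  have ht2 : om * ω / 8 ≤ t := by
    have h1 : om * ω / 4 ≤ min om (ω / 4) := le_min (by nlinarith) (by nlinarith)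
    linarith
  obtain ⟨n, hn, hch⟩ := quad_ch (b := β) (z := y) (p := 0) (X := X + 2) (ω₀ := om) (ω := t)
    (ρ := h) hom hom1 ht0 ht1 hh β1 β2 (by rw [dist_zero_right]; nlinarith) (by rw [ht]; linarith)
    (by rw [ht]; linarith) y3.le
  have hsub : QT (min om t * h / 2) (0 : ℂ × ℂ) ((X + 2 + 2) * h) ⊆ Bx 1 ∩ Qu := by
    intro x hx
    obtain ⟨x1, x2, x3⟩ := hx
    have hx0 : 0 ≤ min om t * h / 2 := by
      have : 0 < min om t := lt_min hom ht0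
      positivity
    rw [dist_zero_right] at x3
    have x4 : ‖x‖ < 1 := by nlinarith
    have g1 : ‖x.1‖ < 1 := (norm_fst_le x).trans_lt x4
    have g2 : ‖x.2‖ < 1 := (norm_snd_le x).trans_lt x4
    exact ⟨⟨(Complex.abs_re_le_norm _).trans_lt g1, (Complex.abs_im_le_norm _).trans_lt g1,
      (Complex.abs_re_le_norm _).trans_lt g2, (Complex.abs_im_le_norm _).trans_lt g2⟩,
      by linarith, by linarith⟩
  have hw := wall_ch (H := b) hch (hd.mono hsub) (fun x hx => hm x (hsub hx))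
  have hyb : |(th y).im| < b := hm y (hsub (hch.stop.2 (mem_ball_self hch.stop.1)))
  have hKS := KS_one
  have h1 : KS ^ n ≤ BQ (X + 2) om t :=
    (pow_le_pow_right₀ hKS (by omega)).trans (KS_pow hom ht0 hn)
  have h2 := BQ_le (X := X + 2) hom hω ht2
  calc e ≤ b - |(th β).im| := by linarith
    _ ≤ KS ^ n * (b - |(th y).im|) := hw
    _ ≤ AA (X + 2) om * (ω⁻¹) ^ pS * (b - |(th y).im|) := by
      have : 0 ≤ b - |(th y).im| := by linarith
      have := h1.trans h2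
      gcongr

theorem grow_pt {C0 d A e W a a' : ℝ} (hd : 0 < d) (hA : 0 < A) (he : 0 < e) (hW : 1 ≤ W)
    (ha' : 0 < a') (hpa : pS * a' ≤ a) (h : e ≤ A * W ^ pS * d) :
    C0 * d ^ (-a') ≤ (max C0 0 + 1) * (A / e) ^ a' * W ^ a := by
  have hW0 : 0 < W := by linarith
  have h1 : d⁻¹ ≤ A / e * W ^ pS := by
    rw [inv_le_iff_one_le_mul₀ hd, div_mul_eq_mul_div, div_mul_eq_mul_div, le_div_iff₀ he, one_mul]
    exact h
  have h2 : d ^ (-a') ≤ (A / e) ^ a' * W ^ a := by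
    rw [Real.rpow_neg hd.le, ← Real.inv_rpow hd.le]
    calc d⁻¹ ^ a' ≤ (A / e * W ^ pS) ^ a' :=
          Real.rpow_le_rpow (by positivity) h1 ha'.le
      _ = (A / e) ^ a' * W ^ (pS * a') := by
          rw [Real.mul_rpow (by positivity) (by positivity), ← Real.rpow_mul hW0.le]
      _ ≤ (A / e) ^ a' * W ^ a := by
          have := Real.rpow_le_rpow_of_exponent_le hW hpa
          gcongr
  have h3 : 0 ≤ d ^ (-a') := by positivity
  have h4 : C0 ≤ max C0 0 + 1 := by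
    have := le_max_left C0 0
    linarith
  have h5 : 0 ≤ max C0 0 + 1 := by
    have := le_max_right C0 0
    linarith
  calc C0 * d ^ (-a') ≤ (max C0 0 + 1) * d ^ (-a') := by gcongr
    _ ≤ (max C0 0 + 1) * ((A / e) ^ a' * W ^ a) := by gcongr
    _ = _ := by ring

/-- the last real estimate -/
theorem last {W a c4 c5 C2 E LL R K pp : ℝ} (hW : 1 ≤ W) (ha : 0 < a) (hp : 0 ≤ pp)
    (hc4 : 0 ≤ c4) (hc5 : 0 ≤ c5) (hC2 : 0 ≤ C2) (hE : E = C2 * W ^ a) (hLL0 : 0 ≤ LL)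
    (hLL : LL ≤ c5 * W ^ (pp + a)) (hR : R ≤ c4 * Real.exp E * (1 + LL))
    (hK : c4 + c5 + C2 + (pp + a) / a ≤ K) : R ≤ Real.exp (K * W ^ a) := by
  have hW0 : 0 < W := by linarith
  have h1 : 1 ≤ W ^ a := Real.one_le_rpow hW ha.le
  have h2 : 1 ≤ W ^ (pp + a) := Real.one_le_rpow hW (by linarith)
  have h3 : W ^ (pp + a) ≤ Real.exp ((pp + a) / a * W ^ a) := by
    rw [Real.rpow_def_of_pos hW0]
    refine Real.exp_le_exp.2 ?_
    have h4 := Real.log_le_rpow_div hW0.le ha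
    calc Real.log W * (pp + a) ≤ W ^ a / a * (pp + a) := by gcongr
      _ = (pp + a) / a * W ^ a := by ring
  have h4 : 1 + LL ≤ Real.exp c5 * Real.exp ((pp + a) / a * W ^ a) := by
    calc 1 + LL ≤ W ^ (pp + a) + c5 * W ^ (pp + a) := by linarith
      _ = (c5 + 1) * W ^ (pp + a) := by ring
      _ ≤ Real.exp c5 * Real.exp ((pp + a) / a * W ^ a) := by
        have := Real.add_one_le_exp c5
        gcongr
  have h5 : c4 ≤ Real.exp c4 := by
    have := Real.add_one_le_exp c4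
    linarith
  calc R ≤ c4 * Real.exp E * (1 + LL) := hR
    _ ≤ Real.exp c4 * Real.exp E * (Real.exp c5 * Real.exp ((pp + a) / a * W ^ a)) := by gcongr
    _ = Real.exp (c4 + E + (c5 + (pp + a) / a * W ^ a)) := by
        rw [← Real.exp_add, ← Real.exp_add, ← Real.exp_add]
    _ ≤ Real.exp (K * W ^ a) := by
        refine Real.exp_le_exp.2 ?_
        have h6 : c4 * 1 ≤ c4 * W ^ a := by gcongr
        have h7 : c5 * 1 ≤ c5 * W ^ a := by gcongr
        have h8 : (c4 + c5 + C2 + (pp + a) / a) * W ^ a ≤ K * W ^ a := by gcongr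
        rw [hE]
        nlinarith

theorem gg_re (F : ℂ → ℂ) (al th : ℂ × ℂ → ℂ) (v : ℂ × ℂ) :
    (gg F al th v).re = -(2 * (al v - F (th v)).im) := by
  unfold gg
  rw [mul_assoc]
  simp only [Complex.mul_re, Complex.mul_im, Complex.I_re, Complex.I_im, Complex.re_ofNat,
    Complex.im_ofNat]
  ring

theorem im_le {F : ℂ → ℂ} {x : ℂ} {b D : ℝ} (h : ‖F x - 2 * Real.pi * x‖ ≤ D)
    (hx : |x.im| < b) : |(F x).im| ≤ 2 * Real.pi * b + D := by
  have h2 := (Complex.abs_im_le_norm _).trans h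
  have h3 : (F x - 2 * Real.pi * x).im = (F x).im - 2 * Real.pi * x.im := by
    simp
  have hpi := Real.pi_pos
  rw [h3] at h2
  rw [abs_lt] at hx
  rw [abs_le] at h2 ⊢
  constructor <;> nlinarith

theorem QT_sub {X om ω h : ℝ} (hX : 1 ≤ X) (hom : 0 < om) (hω : 0 < ω) (hh : 0 < h)
    (hXh : (X + 4) * h ≤ 1) : QT (min om (ω / 4) * h / 2) 0 ((X + 2) * h) ⊆ Bx 1 ∩ Qu := by
  have hmin : 0 < min om (ω / 4) := lt_min hom (by positivity)
  intro x hx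
  obtain ⟨x1, x2, x3⟩ := hx
  have hx0 : 0 ≤ min om (ω / 4) * h / 2 := by positivity
  rw [dist_zero_right] at x3
  have x4 : ‖x‖ < 1 := by nlinarith
  have g1 : ‖x.1‖ < 1 := (norm_fst_le x).trans_lt x4
  have g2 : ‖x.2‖ < 1 := (norm_snd_le x).trans_lt x4
  exact ⟨⟨(Complex.abs_re_le_norm _).trans_lt g1, (Complex.abs_im_le_norm _).trans_lt g1,
    (Complex.abs_re_le_norm _).trans_lt g2, (Complex.abs_im_le_norm _).trans_lt g2⟩,
    by linarith, by linarith⟩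

theorem ball_sub {X om ω h : ℝ} (hX : 1 ≤ X) (hom : 0 < om) (hω : 0 < ω) (hω1 : ω ≤ 1)
    (hh : 0 < h) {z : ℂ × ℂ} (z1 : ω * h ≤ -z.1.im) (z2 : ω * h ≤ z.2.im) (hz : ‖z‖ ≤ X * h) :
    ball z (ω * h / 160) ⊆ QT (min om (ω / 4) * h / 2) 0 ((X + 2) * h) := by
  have hωh : 0 < ω * h := by positivity
  intro v hv
  rw [mem_ball, dist_eq_norm] at hv
  have v1 : ‖v.1 - z.1‖ < ω * h / 160 := (norm_fst_le (v - z)).trans_lt hv
  have v2 : ‖v.2 - z.2‖ < ω * h / 160 := (norm_snd_le (v - z)).trans_lt hv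
  have i1 := abs_lt.1 ((Complex.abs_im_le_norm (v.1 - z.1)).trans_lt v1)
  have i2 := abs_lt.1 ((Complex.abs_im_le_norm (v.2 - z.2)).trans_lt v2)
  rw [Complex.sub_im] at i1 i2
  have m1 : min om (ω / 4) * h / 2 ≤ ω * h / 8 := by
    have := min_le_right om (ω / 4)
    nlinarith
  have hn : ‖v‖ ≤ ‖v - z‖ + ‖z‖ := by
    have := norm_add_le (v - z) z
    rwa [sub_add_cancel] at this
  have hωh1 : ω * h ≤ h := by nlinarith
  exact ⟨by linarith, by linarith, by rw [dist_zero_right]; linarith⟩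

theorem Lg_le {G : ℂ × ℂ → ℂ} {β : ℂ × ℂ} {E e : ℝ} (he : 0 < e) (h : e ≤ ‖G β‖) :
    Lg (Real.exp E) G β ≤ E + max (Real.log (1 / e)) 0 := by
  have hG : 0 < ‖G β‖ := he.trans_le h
  have h1 : Lg (Real.exp E) G β ≤ Real.log (Real.exp E / e) := by
    refine Real.log_le_log (div_pos (Real.exp_pos _) hG) ?_
    gcongr
  have h2 : Real.log (Real.exp E / e) = E + Real.log (1 / e) := by
    rw [Real.log_div (Real.exp_pos _).ne' he.ne', Real.log_exp, one_div, Real.log_inv]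
    ring
  have h3 : Real.log (1 / e) ≤ max (Real.log (1 / e)) 0 := le_max_left _ _
  linarith

theorem four_le : (4 : ℝ) ≤ Real.exp 2 := by
  have e1 := Real.add_one_le_exp (1 : ℝ)
  have e2 : Real.exp 2 = Real.exp 1 * Real.exp 1 := by
    rw [← Real.exp_add]; norm_num
  rw [e2]
  nlinarith

/-- the position at the centre of a small ball -/
theorem pos_pt {K0 : ℝ} (hK01 : 1 ≤ K0)
    (hK0 : ∀ {b : ℝ} {F q : ℂ → ℂ} {c₀ : ℂ × ℂ} {R M c h B : ℝ} {th al p : ℂ × ℂ → ℂ},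
      H365.W.Wn b F q c₀ R M c th al p → DifferentiableOn ℂ al (ball c₀ R) →
      ∀ s : ℝ, (s = 1 ∨ s = -1) → 0 ≤ h →
      (∀ z ∈ ball c₀ R, -(s * (al z - F (th z)).im) ≤ h) →
      (∀ z ∈ ball c₀ R, |(F (th z)).im| ≤ B) →
      ∀ z ∈ ball c₀ (R / 2), ‖p z * Complex.exp (I * (s * al z))‖ ≤
        2 * M * Real.exp (2 * h + B) * Real.exp (K0 * (1 + Real.log (M / c))))
    {Λ b : ℝ} {F q : ℂ → ℂ} (cv : Cv Λ b F q) {al p th : ℂ × ℂ → ℂ} {z z' : ℂ × ℂ}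
    {R E S B : ℝ} (hR : 0 < R) (hE0 : 0 < E) (hS0 : 0 ≤ S)
    (dal : DifferentiableOn ℂ al (ball z R)) (dp : DifferentiableOn ℂ p (ball z R))
    (dth : DifferentiableOn ℂ th (ball z R)) (mem : ∀ y ∈ ball z R, th y ∈ Sb b)
    (inc : ∀ y ∈ ball z R, Mi F q (al y) (p y) (th y) = 0)
    (hq : ∀ y ∈ ball z R, ‖q (th y)‖ ≤ Real.exp (Real.exp E))
    (hq' : ∀ y ∈ ball z R, ‖deriv q (th y)‖ ≤ Real.exp (Real.exp E))
    (hF' : ∀ y ∈ ball z R, ‖deriv F (th y)‖ ≤ Real.exp E)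
    (hB : ∀ y ∈ ball z R, |(F (th y)).im| ≤ B)
    (hz' : z' ∈ ball z (R / 2)) (hG : deriv F (th z') ≠ 0) {sg : ℝ} (hsg : sg = 1 ∨ sg = -1)
    (hSv : ∀ v ∈ ball z R, sg * (gg F al th v).re ≤ S) :
    ‖2 * p z * exp (sg * I * al z)‖ ≤ Real.exp (S + (2 + Real.exp E + B +
      K0 * (1 + (Real.exp E + Lg (Real.exp E) (fun z => deriv F (th z)) z')))) := by
  set c : ℝ := ‖deriv F (th z')‖ with hc
  have hc0 : 0 < c := norm_pos_iff.2 hG
  have hwn : H365.W.Wn b F q z R (Real.exp (Real.exp E)) c th al p := by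
    refine ⟨hR, Real.one_le_exp (by positivity), hc0, cv.dF, dth, dp, mem, inc, hq, hq',
      fun x hx => ?_, ⟨z', hz', le_rfl⟩⟩
    refine (hF' x hx).trans (Real.exp_le_exp.2 ?_)
    have := Real.add_one_le_exp E
    linarith
  have h1 := hK0 (h := S / 2) (B := B) hwn dal sg hsg (by positivity) (fun x hx => by
      have h2 := hSv x hx
      rw [gg_re] at h2
      linarith) hB z (mem_ball_self (by positivity))
  have h2 : (2 : ℂ) * p z * exp (sg * I * al z) = 2 * (p z * exp (I * (sg * al z))) := by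
    have : (sg : ℂ) * I * al z = I * (sg * al z) := by ring
    rw [this]
    ring
  rw [h2, norm_mul, Complex.norm_ofNat]
  set LL : ℝ := Lg (Real.exp E) (fun z => deriv F (th z)) z' with hLLd
  have h3 : Real.log (Real.exp (Real.exp E) / c) = Real.exp E - E + LL := by
    have : LL = Real.log (Real.exp E / c) := rfl
    rw [this, Real.log_div (Real.exp_pos _).ne' hc0.ne',
      Real.log_div (Real.exp_pos _).ne' hc0.ne', Real.log_exp, Real.log_exp]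
    ring
  rw [h3] at h1
  calc 2 * ‖p z * exp (I * (sg * al z))‖
      ≤ 2 * (2 * Real.exp (Real.exp E) * Real.exp (2 * (S / 2) + B) *
        Real.exp (K0 * (1 + (Real.exp E - E + LL)))) := by gcongr
    _ = 4 * Real.exp (Real.exp E) * Real.exp (2 * (S / 2) + B) *
        Real.exp (K0 * (1 + (Real.exp E - E + LL))) := by ring
    _ ≤ Real.exp 2 * Real.exp (Real.exp E) * Real.exp (2 * (S / 2) + B) *
        Real.exp (K0 * (1 + (Real.exp E + LL))) := by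
      have h4 := four_le
      gcongr
      linarith
    _ = _ := by
      rw [← Real.exp_add, ← Real.exp_add, ← Real.exp_add]
      congr 1
      ring

/-- the direction at a point -/
theorem dir_pt {F : ℂ → ℂ} {al th : ℂ × ℂ → ℂ} {z : ℂ × ℂ} {S B : ℝ} (hS0 : 0 ≤ S)
    (hB : |(F (th z)).im| ≤ B) {sg : ℝ} (hsg : sg = 1 ∨ sg = -1)
    (hSv : sg * (gg F al th z).re ≤ S) : ‖exp (sg * I * al z)‖ ≤ Real.exp (S + B) := by
  rw [Complex.norm_exp]
  refine Real.exp_le_exp.2 ?_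
  rw [gg_re, Complex.sub_im] at hSv
  have h2 := abs_le.1 hB
  have h3 : (sg * I * al z).re = -(sg * (al z).im) := by
    simp
  rw [h3]
  rcases hsg with rfl | rfl <;> linarith [h2.1, h2.2]

/-- real bookkeeping for `S` -/
theorem S_le {W pp a AA1 KSS B1 C3 L0 P Bq : ℝ} (hW : 1 ≤ W) (ha : 0 < a) (hAA1 : 0 ≤ AA1)
    (hKS : 0 ≤ KSS) (hB1 : 0 ≤ B1) (hC3 : 0 ≤ C3) (hL00 : 0 ≤ L0) (hP : 0 ≤ P)
    (hL0 : L0 ≤ C3 * W ^ a) (hBq0 : 0 ≤ Bq) (hBq : Bq ≤ AA1 * W ^ pp) :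
    Bq * (2 * KSS * (1 + P + B1 * L0)) ≤
      AA1 * (2 * KSS * (1 + B1 * C3)) * W ^ (pp + a) * (1 + P) := by
  have hW0 : 0 < W := by linarith
  have hWa : 1 ≤ W ^ a := Real.one_le_rpow hW ha.le
  have h3 : 1 + P + B1 * L0 ≤ (1 + B1 * C3) * W ^ a * (1 + P) := by
    have e1 : B1 * L0 ≤ B1 * (C3 * W ^ a) := by gcongr
    have e2 : 0 ≤ B1 * C3 * W ^ a * P := by positivity
    have e3 : (1 + P) * 1 ≤ (1 + P) * W ^ a := by gcongr
    nlinarith
  calc Bq * (2 * KSS * (1 + P + B1 * L0))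
      ≤ (AA1 * W ^ pp) * (2 * KSS * ((1 + B1 * C3) * W ^ a * (1 + P))) := by
        have : 0 ≤ 1 + P + B1 * L0 := by positivity
        gcongr
    _ = AA1 * (2 * KSS * (1 + B1 * C3)) * (W ^ pp * W ^ a) * (1 + P) := by ring
    _ = _ := by rw [← Real.rpow_add hW0]

theorem LL_le {W pp a AA1 C3 L0 LL Bq : ℝ} (hW : 1 ≤ W) (hAA1 : 0 ≤ AA1) (hL00 : 0 ≤ L0)
    (hL0 : L0 ≤ C3 * W ^ a) (hBq0 : 0 ≤ Bq) (hBq : Bq ≤ AA1 * W ^ pp) (hLL : LL ≤ Bq * L0) :
    LL ≤ AA1 * C3 * W ^ (pp + a) := by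
  have hW0 : 0 < W := by linarith
  calc LL ≤ Bq * L0 := hLL
    _ ≤ (AA1 * W ^ pp) * (C3 * W ^ a) := by gcongr
    _ = AA1 * C3 * (W ^ pp * W ^ a) := by ring
    _ = _ := by rw [← Real.rpow_add hW0]

theorem K_le {W s K1 K P : ℝ} (hW : 1 ≤ W) (hK1 : 0 ≤ K1) (hK : K1 ≤ K) (hP : 0 ≤ P) :
    K1 * W ^ s * (1 + P) ≤ K * W ^ (s + 1) * (1 + P) := by
  have h1 : W ^ s ≤ W ^ (s + 1) := Real.rpow_le_rpow_of_exponent_le hW (by linarith)
  have h2 : 0 ≤ W ^ s := by positivity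
  have h3 : K1 * W ^ s ≤ K * W ^ (s + 1) := mul_le_mul hK h1 h2 (hK1.trans hK)
  exact mul_le_mul_of_nonneg_right h3 (by linarith)

theorem R1_le {c4 K0 b E LL : ℝ} (hc4 : c4 = 4 + 2 * Real.pi * b + 2 * K0) (hb : 0 < b)
    (hK0 : 1 ≤ K0) (hE : 0 < E) (hLL : 0 ≤ LL) :
    2 * Real.pi * b + Real.exp E ≤ c4 * Real.exp E * (1 + LL) := by
  have hpi := Real.pi_pos
  have hQ1 : 1 ≤ Real.exp E := Real.one_le_exp hE.le
  have e2 : 2 * Real.pi * b * 1 ≤ 2 * Real.pi * b * Real.exp E := by gcongr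
  have e3 : (1 + 2 * Real.pi * b) * Real.exp E ≤ c4 * Real.exp E := by
    rw [hc4]
    exact mul_le_mul_of_nonneg_right (by linarith) (by linarith)
  have e4 : c4 * Real.exp E * 1 ≤ c4 * Real.exp E * (1 + LL) := by
    rw [hc4]
    gcongr
    linarith
  linarith

theorem R2_le {c4 K0 b E LL : ℝ} (hc4 : c4 = 4 + 2 * Real.pi * b + 2 * K0) (hb : 0 < b)
    (hK0 : 1 ≤ K0) (hE : 0 < E) (hLL : 0 ≤ LL) :
    2 + Real.exp E + (2 * Real.pi * b + Real.exp E) + K0 * (1 + (Real.exp E + LL)) ≤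
      c4 * Real.exp E * (1 + LL) := by
  have hpi := Real.pi_pos
  have hQ1 : 1 ≤ Real.exp E := Real.one_le_exp hE.le
  have e2 : 2 * Real.pi * b * 1 ≤ 2 * Real.pi * b * Real.exp E := by gcongr
  have e3 : K0 * 1 ≤ K0 * Real.exp E := by gcongr
  have e4 : K0 * LL * 1 ≤ K0 * LL * Real.exp E := by gcongr
  have e5 : 0 ≤ (4 + 2 * Real.pi * b) * Real.exp E * LL := by positivity
  have e6 : 0 ≤ K0 * Real.exp E * LL := by positivity
  have e7 : c4 * Real.exp E * (1 + LL) = 4 * Real.exp E + 2 * Real.pi * b * Real.exp E +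
      2 * (K0 * Real.exp E) + (4 + 2 * Real.pi * b) * Real.exp E * LL +
      2 * (K0 * Real.exp E * LL) := by rw [hc4]; ring
  rw [e7]
  linarith

/-- the world at one point, before the bookkeeping -/
theorem pt {Λ b : ℝ} {F q : ℂ → ℂ} (cv : Cv Λ b F q) {a' C0 : ℝ}
    (hC0 : ∀ x ∈ Sb b,
      ‖F x - 2 * Real.pi * x‖ ≤ Real.exp (C0 * (b - |x.im|) ^ (-a')) ∧
      ‖deriv F x‖ ≤ Real.exp (C0 * (b - |x.im|) ^ (-a')) ∧
      ‖q x‖ ≤ Real.exp (Real.exp (C0 * (b - |x.im|) ^ (-a'))) ∧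
      ‖deriv q x‖ ≤ Real.exp (Real.exp (C0 * (b - |x.im|) ^ (-a')))) {K0 : ℝ} (hK01 : 1 ≤ K0)
    (hK0 : ∀ {b : ℝ} {F q : ℂ → ℂ} {c₀ : ℂ × ℂ} {R M c h B : ℝ} {th al p : ℂ × ℂ → ℂ},
      H365.W.Wn b F q c₀ R M c th al p → DifferentiableOn ℂ al (ball c₀ R) →
      ∀ s : ℝ, (s = 1 ∨ s = -1) → 0 ≤ h →
      (∀ z ∈ ball c₀ R, -(s * (al z - F (th z)).im) ≤ h) →
      (∀ z ∈ ball c₀ R, |(F (th z)).im| ≤ B) →
      ∀ z ∈ ball c₀ (R / 2), ‖p z * Complex.exp (I * (s * al z))‖ ≤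
        2 * M * Real.exp (2 * h + B) * Real.exp (K0 * (1 + Real.log (M / c))))
    {e X om ω h E : ℝ} (he : 0 < e) (hX : 1 ≤ X) (hom : 0 < om) (hom1 : om ≤ 1)
    (hω : 0 < ω) (hω1 : ω ≤ 1) (hh : 0 < h) (hXh : (X + 4) * h ≤ 1) (hE0 : 0 < E)
    {al p th : ℂ × ℂ → ℂ} (sw : SQ Λ b F q 1 al p th) (hMd : Md b F th X om e h)
    (hE : ∀ d : ℝ, 0 < d → e ≤ AA (X + 2) om * (ω⁻¹) ^ pS * d → C0 * d ^ (-a') ≤ E)
    {z : ℂ × ℂ} (z1 : ω * h ≤ -z.1.im) (z2 : ω * h ≤ z.2.im) (hz : ‖z‖ ≤ X * h) {sg : ℝ}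
    (hsg : sg = 1 ∨ sg = -1) :
    ∃ L0 LL : ℝ, 0 ≤ L0 ∧ L0 ≤ E + max (Real.log (1 / e)) 0 ∧ 0 ≤ LL ∧
      LL ≤ BQ X om (ω / 4) * L0 ∧
      sg * (gg F al th z).re ≤
        BQ X 1 ω * (2 * KS * (1 + max (sg * Vq F al th h) 0 + BQ X om 1 * L0)) ∧
      ‖exp (sg * I * al z)‖ ≤ Real.exp
        (BQ X 1 ω * (2 * KS * (1 + max (sg * Vq F al th h) 0 + BQ X om 1 * L0)) +
          (2 * Real.pi * b + Real.exp E)) ∧
      ‖2 * p z * exp (sg * I * al z)‖ ≤ Real.exp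
        (BQ X 1 ω * (2 * KS * (1 + max (sg * Vq F al th h) 0 + BQ X om 1 * L0)) +
          (2 + Real.exp E + (2 * Real.pi * b + Real.exp E) +
            K0 * (1 + (Real.exp E + LL)))) := by
  obtain ⟨β, β1, β2, hβ, hβb, hβe⟩ := hMd
  set U : Set (ℂ × ℂ) := QT (min om (ω / 4) * h / 2) 0 ((X + 2) * h) with hU
  have hUsub : U ⊆ Bx 1 ∩ Qu := QT_sub hX hom hω hh hXh
  have hball : ball z (ω * h / 160) ⊆ U := ball_sub hX hom hω hω1 hh z1 z2 hz
  have hg : ∀ y ∈ U, C0 * (b - |(th y).im|) ^ (-a') ≤ E := by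
    intro y hy
    have h1 := walls hX hom hom1 hω hω1 hh he hXh sw.dth sw.mem β1 β2 hβ hβb hy
    have h2 : 0 < b - |(th y).im| := by
      have : |(th y).im| < b := sw.mem y (hUsub hy)
      linarith
    exact hE _ h2 h1
  have hF' : ∀ y ∈ U, ‖deriv F (th y)‖ ≤ Real.exp E := fun y hy =>
    (hC0 _ (sw.mem y (hUsub hy))).2.1.trans (Real.exp_le_exp.2 (hg y hy))
  have hq : ∀ y ∈ U, ‖q (th y)‖ ≤ Real.exp (Real.exp E) := fun y hy =>
    (hC0 _ (sw.mem y (hUsub hy))).2.2.1.trans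
      (Real.exp_le_exp.2 (Real.exp_le_exp.2 (hg y hy)))
  have hq' : ∀ y ∈ U, ‖deriv q (th y)‖ ≤ Real.exp (Real.exp E) := fun y hy =>
    (hC0 _ (sw.mem y (hUsub hy))).2.2.2.trans
      (Real.exp_le_exp.2 (Real.exp_le_exp.2 (hg y hy)))
  have hB : ∀ y ∈ U, |(F (th y)).im| ≤ 2 * Real.pi * b + Real.exp E := fun y hy =>
    im_le ((hC0 _ (sw.mem y (hUsub hy))).1.trans (Real.exp_le_exp.2 (hg y hy)))
      (sw.mem y (hUsub hy))
  have hRG : RG U (Real.exp E) (gg F al th) (fun z => deriv F (th z)) :=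
    H328.W.rg cv (sw.dal.mono hUsub) (sw.dth.mono hUsub)
      (fun x hx => sw.mem x (hUsub hx)) (fun x hx => sw.inc x (hUsub hx))
      (fun x hx => sw.smp x (hUsub hx)) hF'
  have hGβ : (fun z => deriv F (th z)) β ≠ 0 := by
    intro h0
    have : deriv F (th β) = 0 := h0
    rw [this, norm_zero] at hβe
    linarith
  obtain ⟨hL0, hS, z', hz'1, hz'2, hz'3⟩ := core hX hom hom1 hω hω1 hh hRG β1 β2 hβ hGβ z1 z2 hz
  have hLβ : Lg (Real.exp E) (fun z => deriv F (th z)) β ≤ E + max (Real.log (1 / e)) 0 :=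
    Lg_le he hβe
  have hωh : 0 < ω * h := by positivity
  have hz'b : z' ∈ ball z (ω * h / 160 / 2) := by
    rw [mem_ball, dist_eq_norm]
    linarith
  have hz'b2 : z' ∈ ball z (ω * h / 160) := ball_subset_ball (by linarith) hz'b
  have hLL0 : 0 ≤ Lg (Real.exp E) (fun z => deriv F (th z)) z' :=
    Lg_nonneg hRG (hball hz'b2) hz'2
  have hzb : z ∈ ball z (ω * h / 160) := mem_ball_self (by positivity)
  have hKS := KS_one
  have hP0 : 0 ≤ max (sg * Vq F al th h) 0 := le_max_right _ _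
  have hBQ1 : 0 ≤ BQ X 1 ω := by unfold BQ; positivity
  have hBQ2 : 0 ≤ BQ X om 1 := by unfold BQ; positivity
  have hS0 : 0 ≤ BQ X 1 ω * (2 * KS * (1 + max (sg * Vq F al th h) 0 + BQ X om 1 *
      Lg (Real.exp E) (fun z => deriv F (th z)) β)) := by positivity
  have hSz := hS z (by rw [sub_self, norm_zero]; positivity) sg hsg
  refine ⟨_, _, hL0, hLβ, hLL0, hz'3, hSz, dir_pt hS0 (hB z (hball hzb)) hsg hSz, ?_⟩
  exact pos_pt hK01 (fun {b F q c₀ R M c h B th al p} => hK0) cv (by positivity) hE0 hS0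
    (sw.dal.mono (hball.trans hUsub))
    (sw.dp.mono (hball.trans hUsub)) (sw.dth.mono (hball.trans hUsub))
    (fun x hx => sw.mem x (hUsub (hball hx))) (fun x hx => sw.inc x (hUsub (hball hx)))
    (fun x hx => hq x (hball hx)) (fun x hx => hq' x (hball hx)) (fun x hx => hF' x (hball hx))
    (fun x hx => hB x (hball hx)) hz'b hz'2 hsg (fun v hv => by
      rw [mem_ball, dist_eq_norm] at hv
      exact hS v hv.le sg hsg)

/-- **row LAT** -/
theorem lat : H226.W.Lat := by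
  intro Λ b F q cv gr a ha e X om he hX hom hom1
  have hp := pS_nonneg
  have hKS := KS_one
  set a' : ℝ := a / (pS + 1) with ha'
  have ha'0 : 0 < a' := by positivity
  have hpa : pS * a' ≤ a := by
    rw [ha', mul_div_assoc', div_le_iff₀ (by positivity)]
    nlinarith
  obtain ⟨C0, hC0⟩ := gr a' ha'0
  obtain ⟨K0, hK01, hK0⟩ := H365.W.pos_side (V := ℂ × ℂ)
  have hA0 : 0 < AA (X + 2) om := AA_pos _ hom
  obtain ⟨C2, hC2⟩ : ∃ C2 : ℝ, C2 = (max C0 0 + 1) * (AA (X + 2) om / e) ^ a' := ⟨_, rfl⟩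
  have hC20 : 0 < C2 := by
    have := le_max_right C0 0
    rw [hC2]
    positivity
  obtain ⟨l0, hl0⟩ : ∃ l0 : ℝ, l0 = max (Real.log (1 / e)) 0 := ⟨_, rfl⟩
  have hl00 : 0 ≤ l0 := by rw [hl0]; exact le_max_right _ _
  obtain ⟨C3, hC3⟩ : ∃ C3 : ℝ, C3 = C2 + l0 := ⟨_, rfl⟩
  have hC30 : 0 < C3 := by rw [hC3]; positivity
  have hB10 : 0 ≤ BQ X om 1 := by
    unfold BQ
    positivity
  obtain ⟨B1, hB1⟩ : ∃ B1 : ℝ, B1 = BQ X om 1 := ⟨_, rfl⟩
  rw [← hB1] at hB10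
  have hAA1 : 0 < AA X 1 := AA_pos _ one_pos
  have hAAo : 0 < AA X om := AA_pos _ hom
  obtain ⟨K1, hK1⟩ : ∃ K1 : ℝ, K1 = AA X 1 * (2 * KS * (1 + B1 * C3)) := ⟨_, rfl⟩
  have hK10 : 0 < K1 := by rw [hK1]; positivity
  have hb0 := cv.b0
  have hpi := Real.pi_pos
  obtain ⟨c4, hc4⟩ : ∃ c4 : ℝ, c4 = 4 + 2 * Real.pi * b + 2 * K0 := ⟨_, rfl⟩
  have hc40 : 0 ≤ c4 := by rw [hc4]; positivity
  obtain ⟨c5, hc5⟩ : ∃ c5 : ℝ, c5 = AA X om * C3 := ⟨_, rfl⟩
  have hc50 : 0 ≤ c5 := by rw [hc5]; positivity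
  have hr0 : 0 ≤ (pS + a) / a := by positivity
  obtain ⟨K, hK⟩ : ∃ K : ℝ, K = 1 + K1 + (c4 + c5 + C2 + (pS + a) / a) := ⟨_, rfl⟩
  have hKK1 : K1 ≤ K := by linarith
  have hKlast : c4 + c5 + C2 + (pS + a) / a ≤ K := by linarith
  refine ⟨K, by linarith, pS + a + 1, by linarith, ?_⟩
  intro al p th sw h hh hXh hMd ω hω hω1 z z1 z2 hz sg hsg
  have hW : 1 ≤ ω⁻¹ := (one_le_inv₀ hω).2 hω1
  have hW0 : 0 < ω⁻¹ := by positivity
  have hWa : 1 ≤ ω⁻¹ ^ a := Real.one_le_rpow hW ha.le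
  obtain ⟨E, hE⟩ : ∃ E : ℝ, E = C2 * ω⁻¹ ^ a := ⟨_, rfl⟩
  have hE0 : 0 < E := by rw [hE]; positivity
  obtain ⟨L0, LL, hL0, hLβ, hLL0, hLL1, g1, g2, g3⟩ := pt cv hC0 hK01
    (fun {b F q c₀ R M c h B th al p} => hK0) he hX hom hom1 hω
    hω1 hh hXh hE0 sw hMd (fun d hd hd' => by
      rw [hE, hC2]
      exact grow_pt hd hA0 he hW ha'0 hpa hd') z1 z2 hz hsg
  have hL0C : L0 ≤ C3 * ω⁻¹ ^ a := by
    have h4 : l0 * 1 ≤ l0 * ω⁻¹ ^ a := by gcongr
    rw [← hl0] at hLβ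
    rw [hC3, add_mul]
    linarith
  have hP0 : 0 ≤ max (sg * Vq F al th h) 0 := le_max_right _ _
  have hSle := S_le (pp := pS) (KSS := KS) (Bq := BQ X 1 ω) hW ha hAA1.le (by positivity) hB10
    hC30.le hL0 hP0 hL0C (by unfold BQ; positivity) (BQ_le one_pos hω (by linarith))
  rw [← hK1] at hSle
  rw [← hB1] at g1 g2 g3
  have hSK := hSle.trans (K_le hW hK10.le hKK1 hP0)
  have hLL := LL_le (pp := pS) hW hAAo.le hL0 hL0C (by unfold BQ; positivity)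
    (BQ_le hom hω (by nlinarith)) hLL1
  rw [← hc5] at hLL
  refine ⟨g1.trans hSK, g2.trans (Real.exp_le_exp.2 (add_le_add hSK ?_)),
    g3.trans (Real.exp_le_exp.2 (add_le_add hSK ?_))⟩
  · exact last hW ha hp hc40 hc50 hC20.le hE hLL0 hLL (R1_le hc4 hb0 hK01 hE0 hLL0) hKlast
  · exact last hW ha hp hc40 hc50 hC20.le hE hLL0 hLL (R2_le hc4 hb0 hK01 hE0 hLL0) hKlast

end Vale.Agent.P097.H19
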